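import Vale.Agent.P333.H705.GrDefs

set_option autoImplicit false

/-!
P333: strings packed as numbers; families for which the run of the greedy algorithm is unique.
-/

namespace Vale.Agent.P333.H537.Tf

open Vale.Agent.P333 Vale.Agent.P333.Greedy

/-- the string with `n` letters with the base 8 digits of `Z` -/
def dec : ℕ → ℕ → List ℕ
  | 0, _ => []
  | n + 1, Z => dec n (Z / 8) ++ [Z % 8]

theorem length_dec (n : ℕ) : ∀ Z, (dec n Z).length = n := by
  induction n with
  | zero => intro Z; rfl
  | succ n ih => intro Z; simp [dec, ih]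

theorem dec_append (n : ℕ) : ∀ m A B : ℕ, B < 8 ^ m →
    dec (n + m) (A * 8 ^ m + B) = dec n A ++ dec m B := by
  intro m
  induction m with
  | zero =>
    intro A B hB
    have : B = 0 := by simpa using hB
    subst this
    simp [dec]
  | succ m ih =>
    intro A B hB
    have h0 : A * 8 ^ (m + 1) + B = 8 * (A * 8 ^ m) + B := by ring
    have h1 : (A * 8 ^ (m + 1) + B) / 8 = A * 8 ^ m + B / 8 := by
      rw [h0]
      omega
    have h2 : (A * 8 ^ (m + 1) + B) % 8 = B % 8 := by
      rw [h0]
      omega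
    have h3 : B / 8 < 8 ^ m := by
      rw [pow_succ] at hB
      omega
    change dec (n + m) ((A * 8 ^ (m + 1) + B) / 8) ++ [(A * 8 ^ (m + 1) + B) % 8] =
      dec n A ++ (dec m (B / 8) ++ [B % 8])
    rw [h1, h2, ih A (B / 8) h3, List.append_assoc]

theorem dec_inj (n : ℕ) : ∀ Z W : ℕ, Z < 8 ^ n → W < 8 ^ n → dec n Z = dec n W → Z = W := by
  induction n with
  | zero =>
    intro Z W hZ hW _
    simp at hZ hW
    omega
  | succ n ih =>
    intro Z W hZ hW h
    have h' : dec n (Z / 8) ++ [Z % 8] = dec n (W / 8) ++ [W % 8] := h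
    obtain ⟨h1, h2⟩ := List.append_inj' h' rfl
    rw [pow_succ] at hZ hW
    have h3 := ih (Z / 8) (W / 8) (by omega) (by omega) h1
    have h4 : Z % 8 = W % 8 := by simpa using h2
    omega

theorem dec_split (n l Z : ℕ) (h : l ≤ n) :
    dec n Z = dec (n - l) (Z / 8 ^ l) ++ dec l (Z % 8 ^ l) := by
  have h1 := dec_append (n - l) l (Z / 8 ^ l) (Z % 8 ^ l) (Nat.mod_lt _ (by positivity))
  rw [Nat.sub_add_cancel h, Nat.div_add_mod'] at h1
  exact h1

theorem suffix_eq {n Z : ℕ} {u : List ℕ} (hu : u <:+ dec n Z) :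
    u = dec u.length (Z % 8 ^ u.length) := by
  have hl : u.length ≤ n := by
    have := hu.length_le
    rwa [length_dec] at this
  have h1 : dec u.length (Z % 8 ^ u.length) <:+ dec n Z :=
    ⟨dec (n - u.length) (Z / 8 ^ u.length), (dec_split n u.length Z hl).symm⟩
  exact (List.suffix_of_suffix_length_le hu h1 (by rw [length_dec])).eq_of_length
    (by rw [length_dec])

theorem prefix_eq {m W : ℕ} {u : List ℕ} (hu : u <+: dec m W) :
    u = dec u.length (W / 8 ^ (m - u.length)) := by
  have hl : u.length ≤ m := by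
    have := hu.length_le
    rwa [length_dec] at this
  have h0 := dec_split m (m - u.length) W (Nat.sub_le _ _)
  have h2 : m - (m - u.length) = u.length := by omega
  rw [h2] at h0
  have h1 : dec u.length (W / 8 ^ (m - u.length)) <+: dec m W := ⟨_, h0.symm⟩
  exact (List.prefix_of_prefix_length_le hu h1 (by rw [length_dec])).eq_of_length
    (by rw [length_dec])

/-- the string of a pair -/
def str (P : ℕ × ℕ) : List ℕ := dec P.1 P.2

theorem length_str (P : ℕ × ℕ) : (str P).length = P.1 := length_dec _ _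

theorem str_inj {P Q : ℕ × ℕ} (hP : P.2 < 8 ^ P.1) (hQ : Q.2 < 8 ^ Q.1) (h : str P = str Q) :
    P = Q := by
  have h1 : P.1 = Q.1 := by rw [← length_str P, ← length_str Q, h]
  obtain ⟨a, b⟩ := P
  obtain ⟨c, d⟩ := Q
  simp only at h1 hP hQ
  subst h1
  rw [dec_inj a b d hP hQ h]

theorem ov_num {P Q : ℕ × ℕ} {u : List ℕ} (hQ : Q.2 < 8 ^ Q.1) (h1 : u <:+ str P)
    (h2 : u <+: str Q) : P.2 % 8 ^ u.length = Q.2 / 8 ^ (Q.1 - u.length) := by
  have hl : u.length ≤ Q.1 := by
    have := h2.length_le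
    rwa [length_str] at this
  refine dec_inj u.length _ _ (Nat.mod_lt _ (by positivity)) ?_
    ((suffix_eq h1).symm.trans (prefix_eq h2))
  refine Nat.div_lt_of_lt_mul ?_
  rw [← pow_add, Nat.sub_add_cancel hl]
  exact hQ

/-- no overlap of length `l` with `k < l ≤ k + f` -/
def chk (Z W m k : ℕ) : ℕ → Bool
  | 0 => true
  | f + 1 => (!(Nat.beq (Z % 8 ^ (k + f + 1)) (W / 8 ^ (m - (k + f + 1))))) && chk Z W m k f

theorem chk_spec (Z W m k : ℕ) : ∀ f, chk Z W m k f = true → ∀ l, k < l → l ≤ k + f →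
    Z % 8 ^ l ≠ W / 8 ^ (m - l) := by
  intro f
  induction f with
  | zero => intro _ l h1 h2; omega
  | succ f ih =>
    intro h l h1 h2
    simp only [chk, Bool.and_eq_true, Bool.not_eq_true'] at h
    rcases Nat.lt_or_ge l (k + f + 1) with h3 | h3
    · exact ih h.2 l h1 (by omega)
    · have : l = k + f + 1 := by omega
      subst this
      exact Nat.ne_of_beq_eq_false h.1

/-- no overlap longer than `k` -/
def noov (P Q : ℕ × ℕ) (k : ℕ) : Bool := chk P.2 Q.2 Q.1 k (min P.1 Q.1 - k)

theorem noov_spec {P Q : ℕ × ℕ} {k : ℕ} (h : noov P Q k = true) (hQ : Q.2 < 8 ^ Q.1)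
    {u : List ℕ} (h1 : u <:+ str P) (h2 : u <+: str Q) : u.length ≤ k := by
  by_contra hlt
  push Not at hlt
  have hl1 : u.length ≤ P.1 := by
    have := h1.length_le
    rwa [length_str] at this
  have hl2 : u.length ≤ Q.1 := by
    have := h2.length_le
    rwa [length_str] at this
  exact chk_spec _ _ _ _ _ h u.length hlt (by omega) (ov_num hQ h1 h2)

theorem overlap_of {P Q : ℕ × ℕ} {k : ℕ} (hk : k ≤ P.1) (hk' : k ≤ Q.1)
    (h : P.2 % 8 ^ k = Q.2 / 8 ^ (Q.1 - k)) (hn : noov P Q k = true) (hQ : Q.2 < 8 ^ Q.1) :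
    IsOverlap (str P) (str Q) k := by
  refine ⟨⟨dec k (P.2 % 8 ^ k), length_dec _ _, ?_, ?_⟩, ?_⟩
  · exact ⟨_, (dec_split P.1 k P.2 hk).symm⟩
  · rw [h]
    have h0 := dec_split Q.1 (Q.1 - k) Q.2 (Nat.sub_le _ _)
    have h2 : Q.1 - (Q.1 - k) = k := by omega
    rw [h2] at h0
    exact ⟨_, h0.symm⟩
  · rintro l ⟨u, hu, h1, h2⟩
    rw [← hu]
    exact noov_spec hn hQ h1 h2

/-- the merge -/
def mrg (P Q : ℕ × ℕ) (k : ℕ) : ℕ × ℕ := (P.1 - k + Q.1, P.2 / 8 ^ k * 8 ^ Q.1 + Q.2)

theorem str_mrg {P Q : ℕ × ℕ} {k : ℕ} (hk : k ≤ P.1) (hQ : Q.2 < 8 ^ Q.1) :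
    (str P).take ((str P).length - k) ++ str Q = str (mrg P Q k) := by
  unfold mrg str
  rw [dec_append _ _ _ _ hQ]
  congr 1
  rw [length_dec]
  conv_lhs => rw [dec_split P.1 k P.2 hk]
  rw [List.take_append_of_le_length (by rw [length_dec])]
  exact List.take_of_length_le (by rw [length_dec])

/-- check of a step: all letters are fine, all pairs of different strings except `(X, Y)` have
overlaps less than `k`, the overlap of `(X, Y)` is at most `k` -/
def cert (X Y : ℕ × ℕ) (R : List (ℕ × ℕ)) (k : ℕ) : Bool :=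
  ((X :: Y :: R).all fun P => decide (P.2 < 8 ^ P.1)) &&
    ((X :: Y :: R).all fun P => (X :: Y :: R).all fun Q =>
      decide (P = Q) || (decide (P = X) && decide (Q = Y) && noov P Q k) || noov P Q (k - 1))

theorem map_nodup {L : List (ℕ × ℕ)} (h : ∀ P ∈ L, P.2 < 8 ^ P.1) (hn : L.Nodup) :
    (L.map str).Nodup :=
  hn.map_on fun P hP Q hQ he => str_inj (h P hP) (h Q hQ) he

/-- every output from a family of strings which is a permutation of `L` has length `N` -/
def Out (L : List (ℕ × ℕ)) (N : ℕ) : Prop :=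
  ∀ (F : List (List ℕ)) (t : List ℕ), F.Perm (L.map str) →
    Relation.ReflTransGen Greedy.Step F [t] → t.length = N

theorem out_step {L : List (ℕ × ℕ)} {N : ℕ} (X Y m : ℕ × ℕ) (R : List (ℕ × ℕ)) (k : ℕ)
    (hL : L.Perm (X :: Y :: R)) (hk0 : 0 < k) (hk : k ≤ X.1) (hk' : k ≤ Y.1)
    (hkk : X.2 % 8 ^ k = Y.2 / 8 ^ (Y.1 - k)) (hc : cert X Y R k = true)
    (hnd : (X :: Y :: R).Nodup) (hm : mrg X Y k = m) (hN : Out (m :: R) N) : Out L N := by
  intro F t hF ht
  unfold cert at hc
  rw [Bool.and_eq_true, List.all_eq_true, List.all_eq_true] at hc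
  obtain ⟨hok', hpair⟩ := hc
  have hok : ∀ P ∈ X :: Y :: R, P.2 < 8 ^ P.1 := fun P hP => by simpa using hok' P hP
  have hpr : ∀ P ∈ X :: Y :: R, ∀ Q ∈ X :: Y :: R, P ≠ Q →
      (P = X ∧ Q = Y ∧ noov P Q k = true) ∨ noov P Q (k - 1) = true := by
    intro P hP Q hQ hne
    have h1 := hpair P hP
    rw [List.all_eq_true] at h1
    have h2 := h1 Q hQ
    simp only [Bool.or_eq_true, Bool.and_eq_true, decide_eq_true_eq] at h2
    rcases h2 with (h2 | h2) | h2
    · exact absurd h2 hne
    · exact Or.inl ⟨h2.1.1, h2.1.2, h2.2⟩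
    · exact Or.inr h2
  have hG : F.Perm (str X :: str Y :: R.map str) := hF.trans (by simpa using hL.map str)
  have hnd' : (str X :: str Y :: R.map str).Nodup := by simpa using map_nodup hok hnd
  have hXY : X ≠ Y := by
    intro h
    rw [List.nodup_cons] at hnd
    exact hnd.1 (by rw [h]; exact List.mem_cons_self)
  have hXm : X ∈ X :: Y :: R := List.mem_cons_self
  have hYm : Y ∈ X :: Y :: R := List.mem_cons_of_mem _ List.mem_cons_self
  have hno : noov X Y k = true ∨ noov X Y (k - 1) = true := by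
    rcases hpr X hXm Y hYm hXY with h | h
    · exact Or.inl h.2.2
    · exact Or.inr h
  have hov : IsOverlap (str X) (str Y) k := by
    rcases hno with h | h
    · exact overlap_of hk hk' hkk h (hok Y hYm)
    · refine ⟨⟨dec k (X.2 % 8 ^ k), length_dec _ _, ?_, ?_⟩, ?_⟩
      · exact ⟨_, (dec_split X.1 k X.2 hk).symm⟩
      · rw [hkk]
        have h0 := dec_split Y.1 (Y.1 - k) Y.2 (Nat.sub_le _ _)
        have h2 : Y.1 - (Y.1 - k) = k := by omega
        rw [h2] at h0
        exact ⟨_, h0.symm⟩
      · rintro l ⟨u, hu, h1, h2⟩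
        rw [← hu]
        have := noov_spec h (hok Y hYm) h1 h2
        omega
  rcases Relation.ReflTransGen.cases_head ht with h | ⟨F1, h1, h2⟩
  · have h3 := hG.length_eq
    rw [h] at h3
    simp at h3
  · obtain ⟨x, y, R', k', hp, hxy, hmax, rfl⟩ := h1
    have hkk' : k ≤ k' := hmax _ _ _ _ hG hov
    have hq : (x :: y :: R').Perm (str X :: str Y :: R.map str) := hp.symm.trans hG
    have hx : x ∈ (X :: Y :: R).map str := by
      simpa using hq.mem_iff.1 (List.mem_cons_self (a := x))
    have hy : y ∈ (X :: Y :: R).map str := by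
      simpa using hq.mem_iff.1 (List.mem_cons_of_mem x (List.mem_cons_self (a := y)))
    obtain ⟨P, hP, rfl⟩ := List.mem_map.1 hx
    obtain ⟨Q, hQ, rfl⟩ := List.mem_map.1 hy
    have hnd2 := hq.nodup_iff.2 hnd'
    have hPQ : P ≠ Q := by
      intro h
      rw [List.nodup_cons] at hnd2
      exact hnd2.1 (by rw [h]; exact List.mem_cons_self)
    have hcase : P = X ∧ Q = Y := by
      rcases hpr P hP Q hQ hPQ with h | h
      · exact ⟨h.1, h.2.1⟩
      · exfalso
        obtain ⟨u, hu, a, b⟩ := hxy.1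
        have := noov_spec h (hok Q hQ) a b
        omega
    obtain ⟨rfl, rfl⟩ := hcase
    have hke : k' = k := hxy.unique hov
    subst hke
    have hR : R'.Perm (R.map str) := (List.perm_cons _).1 ((List.perm_cons _).1 hq)
    refine hN _ t ?_ h2
    rw [str_mrg hk (hok Q hYm), hm]
    exact hR.cons _

/-! ### Zero overlaps -/

/-- all overlaps of different members are empty -/
def Zero (F : List (List ℕ)) : Prop :=
  ∀ (z w : List ℕ) (R : List (List ℕ)), F.Perm (z :: w :: R) →
    ∀ u : List ℕ, u <:+ z → u <+: w → u = []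

theorem zero_left {x y w u : List ℕ} (hx : ∀ u : List ℕ, u <:+ x → u <+: w → u = [])
    (hy : ∀ u : List ℕ, u <:+ y → u <+: w → u = []) (h1 : u <:+ x ++ y) (h2 : u <+: w) :
    u = [] := by
  rcases Nat.lt_or_ge y.length u.length with h | h
  · exfalso
    have h3 : y <:+ u := List.suffix_of_suffix_length_le (List.suffix_append x y) h1 h.le
    obtain ⟨v, rfl⟩ := h3
    have h4 : v <:+ x := by
      obtain ⟨p, hp⟩ := h1
      rw [← List.append_assoc] at hp
      exact ⟨p, List.append_cancel_right hp⟩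
    have h5 : v <+: w := (List.prefix_append v y).trans h2
    have h6 := hx v h4 h5
    rw [h6] at h
    simp at h
  · exact hy u (List.suffix_of_suffix_length_le h1 (List.suffix_append x y) h) h2

theorem zero_right {x y z u : List ℕ} (hx : ∀ u : List ℕ, u <:+ z → u <+: x → u = [])
    (hy : ∀ u : List ℕ, u <:+ z → u <+: y → u = []) (h1 : u <:+ z) (h2 : u <+: x ++ y) :
    u = [] := by
  rcases Nat.lt_or_ge x.length u.length with h | h
  · exfalso
    have h3 : x <+: u := List.prefix_of_prefix_length_le (List.prefix_append x y) h2 h.le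
    obtain ⟨v, rfl⟩ := h3
    have h4 : v <+: y := by
      obtain ⟨p, hp⟩ := h2
      rw [List.append_assoc] at hp
      exact ⟨p, List.append_cancel_left hp⟩
    have h5 : v <:+ z := (List.suffix_append x v).trans h1
    have h6 := hy v h5 h4
    rw [h6] at h
    simp at h
  · exact hx u h1 (List.prefix_of_prefix_length_le h2 (List.prefix_append x y) h)

theorem zero_step {F F' : List (List ℕ)} (h : Zero F) (hs : Greedy.Step F F') :
    Zero F' ∧ (F'.map List.length).sum = (F.map List.length).sum := by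
  obtain ⟨x, y, R, k, hp, hov, _, rfl⟩ := hs
  have hk : k = 0 := by
    obtain ⟨u, hu, h1, h2⟩ := hov.1
    rw [← hu, h x y R hp u h1 h2]
    rfl
  subst hk
  rw [Nat.sub_zero, List.take_length]
  constructor
  · intro z w R2 hp2 u h1 h2
    by_cases hz : x ++ y = z
    · subst hz
      have h3 : R.Perm (w :: R2) := (List.perm_cons _).1 hp2
      have h4 : F.Perm (x :: w :: (y :: R2)) :=
        hp.trans (((h3.cons y).trans (List.Perm.swap w y R2)).cons x)
      have h5 : F.Perm (y :: w :: (x :: R2)) :=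
        (hp.trans (List.Perm.swap y x R)).trans
          (((h3.cons x).trans (List.Perm.swap w x R2)).cons y)
      exact zero_left (h x w _ h4) (h y w _ h5) h1 h2
    · by_cases hw : x ++ y = w
      · subst hw
        have h3 : R.Perm (z :: R2) :=
          (List.perm_cons _).1 (hp2.trans (List.Perm.swap (x ++ y) z R2))
        have h4 : F.Perm (z :: x :: (y :: R2)) := by
          refine hp.trans ?_
          refine ((h3.cons y).cons x).trans ?_
          refine ((List.Perm.swap z y R2).cons x).trans ?_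
          exact List.Perm.swap z x (y :: R2)
        have h5 : F.Perm (z :: y :: (x :: R2)) :=
          h4.trans ((List.Perm.swap y x R2).cons z)
        exact zero_right (h z x _ h4) (h z y _ h5) h1 h2
      · have hm : x ++ y ∈ z :: w :: R2 := hp2.mem_iff.1 List.mem_cons_self
        have hm2 : x ++ y ∈ R2 := by
          rcases List.mem_cons.1 hm with h6 | h6
          · exact absurd h6 hz
          · rcases List.mem_cons.1 h6 with h7 | h7
            · exact absurd h7 hw
            · exact h7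
        have h3 : R2.Perm ((x ++ y) :: R2.erase (x ++ y)) := List.perm_cons_erase hm2
        have h4 : ((x ++ y) :: R).Perm ((x ++ y) :: z :: w :: R2.erase (x ++ y)) := by
          refine hp2.trans ?_
          refine ((h3.cons w).cons z).trans ?_
          refine ((List.Perm.swap (x ++ y) w _).cons z).trans ?_
          exact List.Perm.swap (x ++ y) z _
        have h5 : R.Perm (z :: w :: R2.erase (x ++ y)) := (List.perm_cons _).1 h4
        have h6 : F.Perm (z :: w :: (x :: y :: R2.erase (x ++ y))) := by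
          refine hp.trans ?_
          have e1 : (x :: y :: R).Perm ([x, y] ++ ([z, w] ++ R2.erase (x ++ y))) := by
            simpa using (h5.cons y).cons x
          refine e1.trans ?_
          rw [← List.append_assoc]
          have e2 : ([x, y] ++ [z, w]).Perm ([z, w] ++ [x, y]) := List.perm_append_comm
          have e3 := e2.append_right (R2.erase (x ++ y))
          simpa using e3
        exact h z w _ h6 u h1 h2
  · have h1 := (hp.map List.length).sum_eq
    rw [h1]
    simp [Nat.add_assoc]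

theorem zero_out {F : List (List ℕ)} {t : List ℕ} (h : Zero F)
    (hs : Relation.ReflTransGen Greedy.Step F [t]) : t.length = (F.map List.length).sum := by
  have key : ∀ F', Relation.ReflTransGen Greedy.Step F F' →
      Zero F' ∧ (F'.map List.length).sum = (F.map List.length).sum := by
    intro F' hF'
    induction hF' with
    | refl => exact ⟨h, rfl⟩
    | tail _ h2 ih =>
      have h3 := zero_step ih.1 h2
      exact ⟨h3.1, h3.2.trans ih.2⟩
  have h4 := (key [t] hs).2
  simpa using h4

/-- check of the last family -/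
def certZ (L : List (ℕ × ℕ)) : Bool :=
  (L.all fun P => decide (P.2 < 8 ^ P.1)) &&
    (L.all fun P => L.all fun Q => decide (P = Q) || noov P Q 0)

theorem out_zero {L : List (ℕ × ℕ)} (hc : certZ L = true) (hnd : L.Nodup) {N : ℕ}
    (hN : (L.map fun P => P.1).sum = N) : Out L N := by
  intro F t hF ht
  unfold certZ at hc
  rw [Bool.and_eq_true, List.all_eq_true, List.all_eq_true] at hc
  obtain ⟨hok', hpair⟩ := hc
  have hok : ∀ P ∈ L, P.2 < 8 ^ P.1 := fun P hP => by simpa using hok' P hP
  have hZ : Zero F := by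
    intro z w R hp u h1 h2
    have hq : (z :: w :: R).Perm (L.map str) := hp.symm.trans hF
    obtain ⟨P, hP, rfl⟩ := List.mem_map.1 (hq.mem_iff.1 (List.mem_cons_self (a := z)))
    obtain ⟨Q, hQ, rfl⟩ := List.mem_map.1
      (hq.mem_iff.1 (List.mem_cons_of_mem _ (List.mem_cons_self (a := w))))
    have hnd2 := hq.nodup_iff.2 (map_nodup hok hnd)
    have hPQ : P ≠ Q := by
      intro h
      rw [List.nodup_cons] at hnd2
      exact hnd2.1 (by rw [h]; exact List.mem_cons_self)
    have h3 := hpair P hP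
    rw [List.all_eq_true] at h3
    have h4 := h3 Q hQ
    simp only [Bool.or_eq_true, decide_eq_true_eq] at h4
    rcases h4 with h4 | h4
    · exact absurd h4 hPQ
    · have := noov_spec h4 (hok Q hQ) h1 h2
      exact List.length_eq_zero_iff.1 (by omega)
  rw [zero_out hZ ht, (hF.map List.length).sum_eq, ← hN, List.map_map]
  congr 1
  refine List.map_congr_left fun P _ => ?_
  exact length_str P

/-! ### Substrings -/

/-- `P` does not occur in `Q` with `q` letters after it, for `q < f` -/
def chkI (Z n W : ℕ) : ℕ → Bool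
  | 0 => true
  | f + 1 => (!(Nat.beq Z (W / 8 ^ f % 8 ^ n))) && chkI Z n W f

theorem chkI_spec (Z n W : ℕ) : ∀ f, chkI Z n W f = true → ∀ q < f, Z ≠ W / 8 ^ q % 8 ^ n := by
  intro f
  induction f with
  | zero => intro _ q hq; omega
  | succ f ih =>
    intro h q hq
    simp only [chkI, Bool.and_eq_true, Bool.not_eq_true'] at h
    rcases Nat.lt_or_ge q f with h3 | h3
    · exact ih h.2 q h3
    · have : q = f := by omega
      subst this
      exact Nat.ne_of_beq_eq_false h.1

theorem infix_num {P Q : ℕ × ℕ} (hP : P.2 < 8 ^ P.1) (h : str P <:+: str Q) :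
    ∃ q, q + P.1 ≤ Q.1 ∧ P.2 = Q.2 / 8 ^ q % 8 ^ P.1 := by
  obtain ⟨a, b, hab⟩ := h
  have hl : a.length + P.1 + b.length = Q.1 := by
    have := congrArg List.length hab
    simpa [length_str, Nat.add_assoc] using this
  refine ⟨b.length, by omega, ?_⟩
  have h1 : a ++ str P <+: str Q := ⟨b, hab⟩
  have h2 := prefix_eq h1
  have h3 : (a ++ str P).length = a.length + P.1 := by simp [length_str]
  rw [h3] at h2
  have h4 : Q.1 - (a.length + P.1) = b.length := by omega
  rw [h4] at h2
  have h5 : str P <:+ dec (a.length + P.1) (Q.2 / 8 ^ b.length) := by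
    rw [← h2]
    exact List.suffix_append _ _
  have h6 := suffix_eq h5
  rw [length_str] at h6
  exact dec_inj P.1 _ _ hP (Nat.mod_lt _ (by positivity)) h6

theorem infix_of {P Q : ℕ × ℕ} (q : ℕ) (hq : q + P.1 ≤ Q.1)
    (h : P.2 = Q.2 / 8 ^ q % 8 ^ P.1) : str P <:+: str Q := by
  have h1 := dec_split Q.1 q Q.2 (by omega)
  have h2 := dec_split (Q.1 - q) P.1 (Q.2 / 8 ^ q) (by omega)
  rw [← h] at h2
  refine ⟨dec (Q.1 - q - P.1) (Q.2 / 8 ^ q / 8 ^ P.1), dec q (Q.2 % 8 ^ q), ?_⟩
  unfold str
  rw [h1, h2]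

/-- no member is a substring of another member -/
def freeF (L : List (ℕ × ℕ)) : Bool :=
  (L.all fun P => decide (P.2 < 8 ^ P.1)) &&
    (L.all fun P => L.all fun Q => decide (P = Q) || chkI P.2 P.1 Q.2 (Q.1 + 1 - P.1))

theorem reduced_of {L : List (ℕ × ℕ)} (h : freeF L = true) (hn : L.Nodup) :
    Greedy.Reduced (L.map str) (L.map str) := by
  unfold freeF at h
  rw [Bool.and_eq_true, List.all_eq_true, List.all_eq_true] at h
  obtain ⟨hok', hpair⟩ := h
  have hok : ∀ P ∈ L, P.2 < 8 ^ P.1 := fun P hP => by simpa using hok' P hP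
  refine ⟨map_nodup hok hn, fun s => ⟨fun hs => ⟨hs, fun t ht hst => ?_⟩, fun hs => hs.1⟩⟩
  obtain ⟨P, hP, rfl⟩ := List.mem_map.1 hs
  obtain ⟨Q, hQ, rfl⟩ := List.mem_map.1 ht
  have h1 := hpair P hP
  rw [List.all_eq_true] at h1
  have h2 := h1 Q hQ
  simp only [Bool.or_eq_true, decide_eq_true_eq] at h2
  rcases h2 with h2 | h2
  · rw [h2]
  · obtain ⟨q, hq, he⟩ := infix_num (hok P hP) hst
    exact absurd he (chkI_spec _ _ _ _ h2 q (by omega))

/-- the positions of the members in a superstring -/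
def supOk (T : ℕ × ℕ) : List (ℕ × ℕ) → List ℕ → Bool
  | [], _ => true
  | _ :: _, [] => false
  | P :: L, q :: qs => decide (q + P.1 ≤ T.1) && Nat.beq P.2 (T.2 / 8 ^ q % 8 ^ P.1) &&
      supOk T L qs

theorem supOk_spec (T : ℕ × ℕ) : ∀ (L : List (ℕ × ℕ)) (qs : List ℕ), supOk T L qs = true →
    ∀ P ∈ L, str P <:+: str T := by
  intro L
  induction L with
  | nil => intro _ _ P hP; simp at hP
  | cons P L ih =>
    intro qs h
    cases qs with
    | nil => simp [supOk] at h
    | cons q qs =>
      simp only [supOk, Bool.and_eq_true, decide_eq_true_eq] at h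
      intro P' hP'
      rcases List.mem_cons.1 hP' with h1 | h1
      · rw [h1]
        exact infix_of q h.1.1 (Nat.eq_of_beq_eq_true h.1.2)
      · exact ih qs h.2 P' h1

theorem opt_le_of {L : List (ℕ × ℕ)} (T : ℕ × ℕ) (qs : List ℕ) (h : supOk T L qs = true) :
    opt (L.map str) ≤ T.1 := by
  have h1 : IsSuperstring (L.map str) (str T) := by
    intro s hs
    obtain ⟨P, hP, rfl⟩ := List.mem_map.1 hs
    exact supOk_spec T L qs h P hP
  exact Nat.sInf_le ⟨str T, h1, length_str T⟩

/-- every output of the greedy algorithm has length `N` -/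
theorem output_all {L : List (ℕ × ℕ)} (hr : Greedy.Reduced (L.map str) (L.map str)) {N : ℕ}
    (hN : Out L N) {t : List ℕ} (h : Greedy.Output (L.map str) t) : t.length = N := by
  obtain ⟨F, hF, hs⟩ := h
  refine hN F t ?_ hs
  rw [List.perm_ext_iff_of_nodup hF.1 hr.1]
  intro s
  rw [hF.2 s]
  exact (hr.2 s).symm

end Vale.Agent.P333.H537.Tf
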